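import Vale.Agent.P245.H300.GLc
import Vale.Agent.P245.H507.G3b
import Vale.Agent.P245.H807.LU6
import Vale.Agent.P245.H991.Spec

set_option linter.unusedSectionVars false

open MeasureTheory Real Set Filter Topology
open scoped ENNReal ContDiff

/-! # The dynamic half, line A -/

namespace Vale.Agent.P245.H300

open LS LS.Down E1

variable {n : ℕ}

/-- Lemma U for every law with small slack (line A) -/
theorem luA {ρ0 : (Fin n → ℝ) → ℝ} {R : ℝ} (hLC : LCd ρ0) [IsProbabilityMeasure (mu ρ0)]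
    (h : CSupp (mu ρ0) R) {b t κ be g0 : ℝ} {N : (Fin n → ℝ) → ℝ} (hb : 0 < b) (ht : 0 < t)
    (hN : Pos N) (h1 : EY (mu ρ0) b N = 1) (hκ : 0 ≤ κ) (hD : DBL (mu ρ0) (b + t) κ 0)
    (hbe : κ * LS.FI (mu ρ0) b N - LS.HE (mu ρ0) b N ≤ be)
    (hg0 : √(LS.GA (mu ρ0) b N) ≤ g0) : H991.LUp (mu ρ0) κ b t be g0 N := by
  intro m φ Q c hφ hQ hsym hop hc
  have hU : H507.Up (mu ρ0) b (b + t) c N φ (fun i j y => Q y i j) :=
    H807.upper hLC h hN hc hφ hb (lt_add_of_pos_right b ht) (Q := fun j k y => Q y j k)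
      (fun j k => hQ j k)
  exact H507.lup_one hLC h hb ht hc hN h1 hφ (fun i j => hQ i j) hsym hop hκ hD hbe hg0 hU

/-- **the dynamic half (line A)** -/
theorem dynT : H991.DynT := by
  intro C0 h ep M hC0 hh hh1 hC0h hep hep1 hM
  obtain ⟨Ka, K, hKa, hK, H⟩ := gl_of_near C0 M h (by linarith) hM hh (by linarith)
    (by linarith)
  refine ⟨Ka, K, ?_⟩
  intro n ρ0 R κ _ hρ hprob hcs hexp hκ hDBS hnear
  have hκ0 : 0 < κ := lt_of_lt_of_le hK hκ
  have := hprob
  obtain ⟨σ, N0, hσ, hN0, hN01, hF0, hn⟩ := hnear 1 one_pos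
  obtain ⟨r, N, f, G⟩ := H n ρ0 R κ hρ hprob hcs hexp hκ hDBS σ N0 hσ hN0 hN01 hF0 hn
  have hδ : 0 < κ / C0 := div_pos hκ0 (by linarith)
  have hr0 : 0 < r := lt_of_lt_of_le (by linarith) G.r_lo
  have hepr : 0 < ep * r := by positivity
  have hepr2 : ep * r ≤ 1 / 100 * (5 / 2 * (κ / C0)) :=
    mul_le_mul hep1 G.r_hi hr0.le (by norm_num)
  refine ⟨r, N, f, √(LS.GA (mu ρ0) r N), ?_, sqrt_nonneg _, ?_, ?_⟩
  · exact
      { lo := by linarith [G.r_lo]
        hi := by linarith [G.r_hi]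
        pos := G.pos
        one := G.one
        sf := G.sb
        F0 := G.fi
        he := G.he
        slack := G.slack
        e_lo := G.e_lo
        e_hi := G.e_hi
        v_lo := G.v_lo
        v_hi := G.v_hi
        tb := G.tb
        fl := G.fl
        aa := G.asy
        da := G.dasy
        co := by
          intro l hl hI
          exact G.co (Fin n → ℝ) (gsn n) (fun w => 1 + ∑ i, |w i|) (H468.out_gsn n) l
            (H468.Ch.of_e1 hl) (by
              have e : M * κ * LS.FI (mu ρ0) r N = M * (κ * LS.FI (mu ρ0) r N) := by ring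
              rw [e]
              exact hI) }
  · have hGA0 : 0 ≤ LS.GA (mu ρ0) r N :=
      EY_nonneg _ _ fun y => mul_nonneg (G.pos.pos y).le (Finset.sum_nonneg fun _ _ =>
        Finset.sum_nonneg fun _ _ => sq_nonneg _)
    rw [sq_sqrt hGA0, le_div_iff₀ hκ0]
    have h1 := G.ga
    have h2 := G.fi
    have h3 : h * LS.FI (mu ρ0) r N ≤ 1 * LS.FI (mu ρ0) r N :=
      mul_le_mul_of_nonneg_right (by linarith) h2.le
    linarith
  · refine luA hρ hcs hr0 hepr G.pos G.one hκ0.le (hDBS _ ⟨?_, ?_⟩) G.slack le_rfl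
    · linarith [G.r_lo]
    · linarith [G.r_hi]

end Vale.Agent.P245.H300
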