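import Mathlib

open Real Set

/-! # The good level lemma (pure mean value argument)

`Vf` is the second moment of a martingale field, `e` its gradient energy, `AA` the energy of the
antisymmetric part of the gradient; the derivatives along the path are the hypotheses. -/

namespace Vale.Agent.P245.H300

/-- a function with nonpositive derivative inside a closed interval is antitone there -/
theorem anti_of_deriv {f f' : ℝ → ℝ} {s T : ℝ} (hc : ContinuousOn f (Icc s T))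
    (hd : ∀ ρ ∈ Ioo s T, HasDerivAt f (f' ρ) ρ) (h0 : ∀ ρ ∈ Ioo s T, f' ρ ≤ 0) :
    AntitoneOn f (Icc s T) := by
  apply antitoneOn_of_deriv_nonpos (convex_Icc s T) hc
  · intro ρ hρ
    rw [interior_Icc] at hρ
    exact (hd ρ hρ).differentiableAt.differentiableWithinAt
  · intro ρ hρ
    rw [interior_Icc] at hρ
    rw [(hd ρ hρ).deriv]
    exact h0 ρ hρ

theorem exp_two_lt : exp 2 < 8 := by
  have h1 := Real.exp_one_lt_d9
  have h2 : exp 2 = exp 1 * exp 1 := by rw [← Real.exp_add]; norm_num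
  have h3 : 0 < exp 1 := Real.exp_pos 1
  rw [h2]
  nlinarith

/-- the weighted energy of the antisymmetric part -/
theorem weight {s T b : ℝ} {e AA d B DA : ℝ → ℝ} (hsT : s < T) (hb : 0 < b)
    (hec : ContinuousOn e (Icc s T)) (hAc : ContinuousOn AA (Icc s T))
    (he0 : ∀ ρ ∈ Icc s T, 0 ≤ e ρ)
    (he : ∀ ρ ∈ Ioo s T, HasDerivAt e (-(d ρ)) ρ)
    (hA : ∀ ρ ∈ Ioo s T, ∃ X, HasDerivAt AA (-(DA ρ + 4 * X)) ρ ∧ X ^ 2 ≤ AA ρ * (B ρ / b))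
    (hA0 : ∀ ρ ∈ Icc s T, 0 ≤ AA ρ) (hB0 : ∀ ρ ∈ Ioo s T, 0 ≤ B ρ)
    (hDA0 : ∀ ρ ∈ Ioo s T, 0 ≤ DA ρ) (hBd : ∀ ρ ∈ Ioo s T, 2 * B ρ ≤ d ρ)
    (hAs : AA s = 0) :
    ∃ E : ℝ → ℝ, Continuous E ∧ (∀ ρ, 0 < E ρ) ∧
      (∀ ρ ∈ Ioo s T, ∃ Y, HasDerivAt (fun ρ => AA ρ * E ρ) Y ρ ∧
        Y ≤ -(1 / 8) * DA ρ + (T - s) / b * d ρ) ∧
      ∀ ρ ∈ Icc s T, AA ρ ≤ 8 * ((T - s) / b) * e s := by
  set L := T - s with hL
  have hL0 : 0 < L := by rw [hL]; linarith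
  have hsI : s ∈ Icc s T := ⟨le_refl _, hsT.le⟩
  have hd0 : ∀ ρ ∈ Ioo s T, 0 ≤ d ρ := fun ρ hρ => by
    have := hB0 ρ hρ
    have := hBd ρ hρ
    linarith
  set q := L / b with hqdef
  have hq0 : 0 < q := div_pos hL0 hb
  set E : ℝ → ℝ := fun ρ => exp (-(2 / L) * (ρ - s)) with hE
  have hEd : ∀ ρ, HasDerivAt E (-(2 / L) * E ρ) ρ := by
    intro ρ
    have h0 : HasDerivAt (fun ρ : ℝ => -(2 / L) * (ρ - s)) (-(2 / L)) ρ := by
      simpa using ((hasDerivAt_id ρ).sub_const s).const_mul (-(2 / L))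
    have := h0.exp
    rw [hE]
    simpa [mul_comm] using this
  have hEc : Continuous E := continuous_iff_continuousAt.2 fun ρ => (hEd ρ).continuousAt
  have hE0 : ∀ ρ, 0 < E ρ := fun ρ => exp_pos _
  have hE1 : ∀ ρ ∈ Icc s T, E ρ ≤ 1 := by
    intro ρ hρ
    rw [hE]
    simp only
    rw [exp_le_one_iff]
    have : 0 ≤ 2 / L * (ρ - s) := mul_nonneg (by positivity) (by linarith [hρ.1])
    linarith
  have hE2 : ∀ ρ ∈ Icc s T, 1 / 8 ≤ E ρ := by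
    intro ρ hρ
    have i1 : exp (-2) ≤ E ρ := by
      rw [hE]
      simp only
      apply exp_le_exp.2
      have : 2 / L * (ρ - s) ≤ 2 := by
        rw [div_mul_eq_mul_div, div_le_iff₀ hL0]
        have := hρ.2
        rw [hL]; linarith
      linarith
    have i2 : (1 : ℝ) / 8 ≤ exp (-2) := by
      rw [Real.exp_neg, one_div]
      exact inv_anti₀ (exp_pos 2) exp_two_lt.le
    linarith
  -- derivative of `AA * E`
  have key : ∀ ρ ∈ Ioo s T, ∃ Y, HasDerivAt (fun ρ => AA ρ * E ρ) Y ρ ∧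
      Y ≤ -(1 / 8) * DA ρ + q * d ρ := by
    intro ρ hρ
    obtain ⟨X, hX, hX2⟩ := hA ρ hρ
    have hρI := Ioo_subset_Icc_self hρ
    refine ⟨_, hX.mul (hEd ρ), ?_⟩
    have a0 := hA0 ρ hρI
    have b0 := hB0 ρ hρ
    have da0 := hDA0 ρ hρ
    have bd := hBd ρ hρ
    have c1 : |2 * X| ≤ AA ρ / L + L * (B ρ / b) := by
      apply abs_le_of_sq_le_sq
      · have e1 : (AA ρ / L + L * (B ρ / b)) ^ 2
            = (AA ρ / L - L * (B ρ / b)) ^ 2 + 4 * (AA ρ * (B ρ / b)) := by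
          field_simp; ring
        rw [e1]
        have := sq_nonneg (AA ρ / L - L * (B ρ / b))
        nlinarith
      · positivity
    have c2 : -(2 * X) ≤ AA ρ / L + L * (B ρ / b) := (neg_le_abs _).trans c1
    have c3 : L * (B ρ / b) = q * B ρ := by rw [hqdef]; ring
    have c4 : -(DA ρ + 4 * X) - 2 / L * AA ρ ≤ -DA ρ + q * d ρ := by
      have : 2 / L * AA ρ = 2 * (AA ρ / L) := by ring
      rw [this]
      have : q * (2 * B ρ) ≤ q * d ρ := mul_le_mul_of_nonneg_left bd hq0.le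
      rw [c3] at c2
      linarith
    have c5 : -(DA ρ + 4 * X) * E ρ + AA ρ * (-(2 / L) * E ρ)
        = E ρ * (-(DA ρ + 4 * X) - 2 / L * AA ρ) := by ring
    rw [c5]
    have hEl := hE2 ρ hρI
    have hEu := hE1 ρ hρI
    have dd0 := hd0 ρ hρ
    calc E ρ * (-(DA ρ + 4 * X) - 2 / L * AA ρ) ≤ E ρ * (-DA ρ + q * d ρ) :=
          mul_le_mul_of_nonneg_left c4 (hE0 ρ).le
      _ ≤ -(1 / 8) * DA ρ + q * d ρ := by
          have t1 : E ρ * (q * d ρ) ≤ 1 * (q * d ρ) :=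
            mul_le_mul_of_nonneg_right hEu (mul_nonneg hq0.le dd0)
          have t2 : 1 / 8 * DA ρ ≤ E ρ * DA ρ := mul_le_mul_of_nonneg_right hEl da0
          nlinarith
  refine ⟨E, hEc, hE0, key, ?_⟩
  have hAEc : ContinuousOn (fun ρ => AA ρ * E ρ) (Icc s T) := hAc.mul hEc.continuousOn
  choose! Y hY1 hY2 using key
  intro ρ hρ
  have m : AntitoneOn (fun ρ => AA ρ * E ρ + q * e ρ) (Icc s T) := by
    apply anti_of_deriv (f' := fun ρ => Y ρ + q * (-(d ρ)))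
    · exact hAEc.add (continuousOn_const.mul hec)
    · intro ρ hρ
      exact (hY1 ρ hρ).add ((he ρ hρ).const_mul q)
    · intro ρ hρ
      have := hY2 ρ hρ
      have := hDA0 ρ hρ
      linarith
  have m1 := m hsI hρ hρ.1
  simp only at m1
  rw [hAs, zero_mul, zero_add] at m1
  have e0 : 0 ≤ q * e ρ := mul_nonneg hq0.le (he0 ρ hρ)
  have l1 : 1 / 8 * AA ρ ≤ AA ρ * E ρ := by
    have := mul_le_mul_of_nonneg_left (hE2 ρ hρ) (hA0 ρ hρ)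
    linarith
  linarith

/-- monotonicity facts along the path -/
theorem path_facts {s T κ h a1 a2 : ℝ} {Vf e d : ℝ → ℝ} (hsT : s < T) (hκ : 0 < κ)
    (hh : 0 < h) (hh1 : h ≤ 1) (hL : 64 * (T - s) ≤ h ^ 2 * κ)
    (hVc : ContinuousOn Vf (Icc s T)) (hec : ContinuousOn e (Icc s T))
    (hV : ∀ ρ ∈ Ioo s T, HasDerivAt Vf (-(e ρ)) ρ)
    (he : ∀ ρ ∈ Ioo s T, HasDerivAt e (-(d ρ)) ρ)
    (hd0 : ∀ ρ ∈ Ioo s T, 0 ≤ d ρ) (heT : 0 < e T)
    (h1 : 2 * κ * e s ≤ Vf s + a1) (h2 : Vf T ≤ 2 * κ * e T + a2)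
    (h3 : 4 * (a1 + a2) < h * (T - s) * e T) :
    (∀ ρ ∈ Icc s T, e T ≤ e ρ ∧ e ρ ≤ e s ∧ Vf T ≤ Vf ρ ∧ Vf ρ ≤ Vf s) ∧
      (T - s) * e T ≤ Vf s - Vf T ∧ Vf s ≤ Vf T + (T - s) * e s ∧ e s ≤ (1 + h) * e T := by
  have hsI : s ∈ Icc s T := ⟨le_refl _, hsT.le⟩
  have hTI : T ∈ Icc s T := ⟨hsT.le, le_refl _⟩
  have eanti : AntitoneOn e (Icc s T) :=
    anti_of_deriv hec he fun ρ hρ => by have := hd0 ρ hρ; linarith
  have hepos : ∀ ρ ∈ Icc s T, e T ≤ e ρ := fun ρ hρ => eanti hρ hTI hρ.2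
  have hele : ∀ ρ ∈ Icc s T, e ρ ≤ e s := fun ρ hρ => eanti hsI hρ hρ.1
  have Vanti : AntitoneOn Vf (Icc s T) :=
    anti_of_deriv hVc hV fun ρ hρ => by
      have := hepos ρ (Ioo_subset_Icc_self hρ); linarith
  have hVlow : (T - s) * e T ≤ Vf s - Vf T := by
    have m : AntitoneOn (fun ρ => Vf ρ + e T * ρ) (Icc s T) := by
      apply anti_of_deriv (f' := fun ρ => -(e ρ) + e T * 1)
      · exact hVc.add (continuous_const.mul continuous_id).continuousOn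
      · intro ρ hρ
        exact (hV ρ hρ).add ((hasDerivAt_id ρ).const_mul (e T))
      · intro ρ hρ
        have := hepos ρ (Ioo_subset_Icc_self hρ); linarith
    have := m hsI hTI hsT.le
    simp only at this
    linarith
  have hVup : Vf s ≤ Vf T + (T - s) * e s := by
    have m : AntitoneOn (fun ρ => -Vf ρ + (-(e s)) * ρ) (Icc s T) := by
      apply anti_of_deriv (f' := fun ρ => -(-(e ρ)) + (-(e s)) * 1)
      · exact hVc.neg.add (continuous_const.mul continuous_id).continuousOn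
      · intro ρ hρ
        exact (hV ρ hρ).neg.add ((hasDerivAt_id ρ).const_mul (-(e s)))
      · intro ρ hρ
        have := hele ρ (Ioo_subset_Icc_self hρ); linarith
    have := m hsI hTI hsT.le
    simp only at this
    linarith
  refine ⟨fun ρ hρ => ⟨hepos ρ hρ, hele ρ hρ, Vanti hρ hTI hρ.2, Vanti hsI hρ hρ.1⟩,
    hVlow, hVup, ?_⟩
  have hL0 : 0 < T - s := by linarith
  have hes0 : 0 < e s := lt_of_lt_of_le heT (hele T hTI)
  have k1 : (2 * κ - (T - s)) * e s ≤ (2 * κ + h * (T - s) / 4) * e T := by linarith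
  have hh2 : h ^ 2 ≤ h := by nlinarith
  have hL2 : 64 * (T - s) ≤ h * κ := hL.trans (mul_le_mul_of_nonneg_right hh2 hκ.le)
  have k0 : h * (T - s) ≤ 1 * (T - s) := mul_le_mul_of_nonneg_right hh1 hL0.le
  have k2 : (2 * κ + h * (T - s) / 4) ≤ (2 * κ - (T - s)) * (1 + h) := by linarith
  have k3' : h * κ ≤ 1 * κ := mul_le_mul_of_nonneg_right hh1 hκ.le
  have k3 : 0 < 2 * κ - (T - s) := by linarith
  have k4 : (2 * κ - (T - s)) * e s ≤ (2 * κ - (T - s)) * ((1 + h) * e T) := by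
    calc (2 * κ - (T - s)) * e s ≤ (2 * κ + h * (T - s) / 4) * e T := k1
      _ ≤ ((2 * κ - (T - s)) * (1 + h)) * e T := mul_le_mul_of_nonneg_right k2 heT.le
      _ = _ := by ring
  exact le_of_mul_le_mul_left k4 k3

/-- the good level, with an additional function `y` (the slack) -/
theorem good_level_y {s T κ b h a1 a2 a3 a4 m : ℝ} {Vf e AA d B DA y g : ℝ → ℝ} (hsT : s < T)
    (hb : 0 < b) (hbκ : b ≤ κ) (hh : 0 < h) (hh1 : h ≤ 1) (hq : 64 * (T - s) ≤ h ^ 2 * b)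
    (ha1 : 0 ≤ a1) (ha2 : 0 ≤ a2) (hm : 0 ≤ m) (ha3 : 0 ≤ a3) (ha4 : 0 ≤ a4)
    (hVc : ContinuousOn Vf (Icc s T)) (hec : ContinuousOn e (Icc s T))
    (hAc : ContinuousOn AA (Icc s T)) (hyc : ContinuousOn y (Icc s T))
    (hV : ∀ ρ ∈ Ioo s T, HasDerivAt Vf (-(e ρ)) ρ)
    (he : ∀ ρ ∈ Ioo s T, HasDerivAt e (-(d ρ)) ρ)
    (hA : ∀ ρ ∈ Ioo s T, ∃ X, HasDerivAt AA (-(DA ρ + 4 * X)) ρ ∧ X ^ 2 ≤ AA ρ * (B ρ / b))
    (hy : ∀ ρ ∈ Ioo s T, HasDerivAt y (g ρ) ρ)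
    (hA0 : ∀ ρ ∈ Icc s T, 0 ≤ AA ρ) (hB0 : ∀ ρ ∈ Ioo s T, 0 ≤ B ρ)
    (hDA0 : ∀ ρ ∈ Ioo s T, 0 ≤ DA ρ) (hBd : ∀ ρ ∈ Ioo s T, 2 * B ρ ≤ d ρ)
    (hg : ∀ ρ ∈ Ioo s T, -a3 ≤ g ρ)
    (hAs : AA s = 0) (h1 : 2 * κ * e s ≤ Vf s + a1) (h2 : Vf T ≤ 2 * κ * e T + a2)
    (hy1 : y T - y s ≤ a4)
    (h3 : 4 * (a1 + a2 + m * (a4 + a3 * (T - s))) < h * (T - s) * e T) :
    ∃ ρ ∈ Ioo s T, 2 * κ * d ρ ≤ (1 + h) * e ρ ∧ 2 * κ * DA ρ ≤ h * e ρ ∧ AA ρ ≤ h * e ρ ∧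
      m * (g ρ + a3) ≤ (1 + h) * e ρ ∧
      e T ≤ e ρ ∧ e ρ ≤ e s ∧ e s ≤ (1 + h) * e T ∧ Vf T ≤ Vf ρ ∧ Vf ρ ≤ Vf s ∧
      Vf s ≤ Vf T + (T - s) * e s := by
  have hκ : 0 < κ := lt_of_lt_of_le hb hbκ
  have hL0 : 0 < T - s := by linarith
  have hsI : s ∈ Icc s T := ⟨le_refl _, hsT.le⟩
  have hTI : T ∈ Icc s T := ⟨hsT.le, le_refl _⟩
  have hM0 : 0 ≤ m * (a4 + a3 * (T - s)) :=
    mul_nonneg hm (add_nonneg ha4 (mul_nonneg ha3 hL0.le))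
  have hd0 : ∀ ρ ∈ Ioo s T, 0 ≤ d ρ := fun ρ hρ => by
    have := hB0 ρ hρ
    have := hBd ρ hρ
    linarith
  have heT : 0 < e T := by
    by_contra hc
    push Not at hc
    have : h * (T - s) * e T ≤ 0 := mul_nonpos_of_nonneg_of_nonpos (by positivity) hc
    linarith
  have hLκ : 64 * (T - s) ≤ h ^ 2 * κ := hq.trans (by
    apply mul_le_mul_of_nonneg_left hbκ (by positivity))
  obtain ⟨mono, hVlow, hVup, hes⟩ :=
    path_facts hsT hκ hh hh1 hLκ hVc hec hV he hd0 heT h1 h2 (by linarith)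
  obtain ⟨E, hEc, hE0, key, hAsmall⟩ := weight hsT hb hec hAc
    (fun ρ hρ => heT.le.trans (mono ρ hρ).1) he hA hA0 hB0 hDA0 hBd hAs
  have hq1 : 64 * ((T - s) / b) ≤ h ^ 2 := by
    rw [← mul_div_assoc, div_le_iff₀ hb]; exact hq
  generalize hqd : (T - s) / b = q at *
  have hq0 : 0 < q := by rw [← hqd]; exact div_pos hL0 hb
  have hAEc : ContinuousOn (fun ρ => AA ρ * E ρ) (Icc s T) := hAc.mul hEc.continuousOn
  choose! Y hY1 hY2 using key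
  obtain ⟨lam, hlam0, hlamh⟩ : ∃ lam : ℝ, 0 < lam ∧ lam * h = 1 + h :=
    ⟨(1 + h) / h, by positivity, by field_simp⟩
  obtain ⟨ε, hε⟩ : ∃ ε : ℝ, ε = 8 * lam * q := ⟨_, rfl⟩
  have hε0 : 0 < ε := by rw [hε]; positivity
  have hε1 : ε ≤ h / 4 := by
    have t1 : ε * h = 8 * (1 + h) * q := by rw [hε, ← hlamh]; ring
    have t2 : 8 * (1 + h) * q ≤ h / 4 * h := by nlinarith
    have t3 : ε * h ≤ h / 4 * h := by rw [t1]; exact t2
    exact le_of_mul_le_mul_right t3 hh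
  have hΨc : ContinuousOn (fun ρ => ((1 + ε) * (Vf ρ - 2 * κ * e ρ) + (h - ε) * Vf ρ
      - 2 * κ * lam * 8 * (AA ρ * E ρ)) + m * (y ρ + a3 * (ρ - s))) (Icc s T) :=
    (((continuousOn_const.mul (hVc.sub (continuousOn_const.mul hec))).add
      (continuousOn_const.mul hVc)).sub (continuousOn_const.mul hAEc)).add
      (continuousOn_const.mul (hyc.add
        (continuousOn_const.mul (continuousOn_id.sub continuousOn_const))))
  have hΨd : ∀ ρ ∈ Ioo s T, HasDerivAt (fun ρ => ((1 + ε) * (Vf ρ - 2 * κ * e ρ)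
      + (h - ε) * Vf ρ - 2 * κ * lam * 8 * (AA ρ * E ρ)) + m * (y ρ + a3 * (ρ - s)))
      (((1 + ε) * (-(e ρ) - 2 * κ * (-(d ρ)))
      + (h - ε) * (-(e ρ)) - 2 * κ * lam * 8 * Y ρ) + m * (g ρ + a3 * 1)) ρ := by
    intro ρ hρ
    exact (((((hV ρ hρ).sub ((he ρ hρ).const_mul (2 * κ))).const_mul (1 + ε)).add
      ((hV ρ hρ).const_mul (h - ε))).sub ((hY1 ρ hρ).const_mul (2 * κ * lam * 8))).add
      (((hy ρ hρ).add (((hasDerivAt_id ρ).sub_const s).const_mul a3)).const_mul m)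
  obtain ⟨ρ, hρ, hmv⟩ := exists_hasDerivAt_eq_slope _ _ hsT hΨc hΨd
  have hρI := Ioo_subset_Icc_self hρ
  have hΨneg : (((1 + ε) * (Vf T - 2 * κ * e T) + (h - ε) * Vf T
      - 2 * κ * lam * 8 * (AA T * E T)) + m * (y T + a3 * (T - s)))
      - (((1 + ε) * (Vf s - 2 * κ * e s) + (h - ε) * Vf s
      - 2 * κ * lam * 8 * (AA s * E s)) + m * (y s + a3 * (s - s))) < 0 := by
    have t1 : (((1 + ε) * (Vf T - 2 * κ * e T) + (h - ε) * Vf T
      - 2 * κ * lam * 8 * (AA T * E T)) + m * (y T + a3 * (T - s)))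
      - (((1 + ε) * (Vf s - 2 * κ * e s) + (h - ε) * Vf s
      - 2 * κ * lam * 8 * (AA s * E s)) + m * (y s + a3 * (s - s)))
        = (1 + ε) * ((Vf T - 2 * κ * e T) - (Vf s - 2 * κ * e s))
        - (h - ε) * (Vf s - Vf T) - 2 * κ * lam * 8 * (AA T * E T)
        + m * ((y T - y s) + a3 * (T - s)) := by
      rw [hAs]; ring
    have t2 : 0 ≤ 2 * κ * lam * 8 * (AA T * E T) := by
      have := hA0 T hTI
      have := (hE0 T).le
      positivity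
    have t3 : (Vf T - 2 * κ * e T) - (Vf s - 2 * κ * e s) ≤ a1 + a2 := by linarith
    have t4 : (1 + ε) * ((Vf T - 2 * κ * e T) - (Vf s - 2 * κ * e s)) ≤ 5 / 4 * (a1 + a2) := by
      calc (1 + ε) * ((Vf T - 2 * κ * e T) - (Vf s - 2 * κ * e s)) ≤ (1 + ε) * (a1 + a2) :=
            mul_le_mul_of_nonneg_left t3 (by linarith)
        _ ≤ 5 / 4 * (a1 + a2) := mul_le_mul_of_nonneg_right (by linarith) (by linarith)
    have t5 : 3 / 4 * h * ((T - s) * e T) ≤ (h - ε) * (Vf s - Vf T) := by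
      calc 3 / 4 * h * ((T - s) * e T) ≤ (h - ε) * ((T - s) * e T) :=
            mul_le_mul_of_nonneg_right (by linarith) (by positivity)
        _ ≤ _ := mul_le_mul_of_nonneg_left hVlow (by linarith)
    have t6 : 0 < h * (T - s) * e T := by positivity
    have t7 : m * ((y T - y s) + a3 * (T - s)) ≤ m * (a4 + a3 * (T - s)) :=
      mul_le_mul_of_nonneg_left (by linarith) hm
    rw [t1]
    linarith
  have hslope := div_neg_of_neg_of_pos hΨneg hL0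
  rw [← hmv] at hslope
  have hfin : 2 * κ * d ρ + 2 * κ * lam * DA ρ + m * (g ρ + a3) < (1 + h) * e ρ := by
    have y := hY2 ρ hρ
    have y2 : 2 * κ * lam * 8 * Y ρ ≤ 2 * κ * lam * 8 * (-(1 / 8) * DA ρ + q * d ρ) :=
      mul_le_mul_of_nonneg_left y (by positivity)
    have y3 : 2 * κ * lam * 8 * (-(1 / 8) * DA ρ + q * d ρ)
        = -(2 * κ * lam * DA ρ) + 2 * κ * ε * d ρ := by rw [hε]; ring
    rw [y3] at y2
    linarith
  have hd00 := hd0 ρ hρ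
  have hDA00 := hDA0 ρ hρ
  have hg00 : 0 ≤ m * (g ρ + a3) := mul_nonneg hm (by have := hg ρ hρ; linarith)
  obtain ⟨m1, m2, m3, m4⟩ := mono ρ hρI
  have he0 : 0 < e ρ := lt_of_lt_of_le heT m1
  have u0 : 0 ≤ 2 * κ * d ρ := by positivity
  have u1 : 0 ≤ 2 * κ * lam * DA ρ := by positivity
  refine ⟨ρ, hρ, by linarith, ?_, ?_, by linarith, m1, m2, hes, m3, m4, hVup⟩
  · have t2 : lam * (2 * κ * DA ρ) ≤ lam * (h * e ρ) := by
      have : lam * (h * e ρ) = (1 + h) * e ρ := by rw [← hlamh]; ring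
      rw [this]
      linarith
    exact le_of_mul_le_mul_left t2 hlam0
  · have t1 := hAsmall ρ hρI
    have t3 : e s ≤ 2 * e ρ := by
      calc e s ≤ (1 + h) * e T := hes
        _ ≤ 2 * e T := mul_le_mul_of_nonneg_right (by linarith) heT.le
        _ ≤ 2 * e ρ := by linarith
    have t4 : 16 * q ≤ h := by nlinarith
    calc AA ρ ≤ 8 * q * e s := t1
      _ ≤ 8 * q * (2 * e ρ) := mul_le_mul_of_nonneg_left t3 (by positivity)
      _ = 16 * q * e ρ := by ring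
      _ ≤ h * e ρ := mul_le_mul_of_nonneg_right t4 he0.le

/-- the good level -/
theorem good_level {s T κ b h a1 a2 : ℝ} {Vf e AA d B DA : ℝ → ℝ} (hsT : s < T) (hb : 0 < b)
    (hbκ : b ≤ κ) (hh : 0 < h) (hh1 : h ≤ 1) (hq : 64 * (T - s) ≤ h ^ 2 * b)
    (ha1 : 0 ≤ a1) (ha2 : 0 ≤ a2)
    (hVc : ContinuousOn Vf (Icc s T)) (hec : ContinuousOn e (Icc s T))
    (hAc : ContinuousOn AA (Icc s T))
    (hV : ∀ ρ ∈ Ioo s T, HasDerivAt Vf (-(e ρ)) ρ)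
    (he : ∀ ρ ∈ Ioo s T, HasDerivAt e (-(d ρ)) ρ)
    (hA : ∀ ρ ∈ Ioo s T, ∃ X, HasDerivAt AA (-(DA ρ + 4 * X)) ρ ∧ X ^ 2 ≤ AA ρ * (B ρ / b))
    (hA0 : ∀ ρ ∈ Icc s T, 0 ≤ AA ρ) (hB0 : ∀ ρ ∈ Ioo s T, 0 ≤ B ρ)
    (hDA0 : ∀ ρ ∈ Ioo s T, 0 ≤ DA ρ) (hBd : ∀ ρ ∈ Ioo s T, 2 * B ρ ≤ d ρ)
    (hAs : AA s = 0) (h1 : 2 * κ * e s ≤ Vf s + a1) (h2 : Vf T ≤ 2 * κ * e T + a2)
    (h3 : 4 * (a1 + a2) < h * (T - s) * e T) :
    ∃ ρ ∈ Ioo s T, 2 * κ * d ρ ≤ (1 + h) * e ρ ∧ 2 * κ * DA ρ ≤ h * e ρ ∧ AA ρ ≤ h * e ρ ∧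
      e T ≤ e ρ ∧ e ρ ≤ e s ∧ e s ≤ (1 + h) * e T ∧ Vf T ≤ Vf ρ ∧ Vf ρ ≤ Vf s ∧
      Vf s ≤ Vf T + (T - s) * e s := by
  obtain ⟨ρ, hρ, c1, c2, c3, -, c5⟩ := good_level_y (y := fun _ => 0) (g := fun _ => 0)
    (a3 := 0) (a4 := 0) (m := 0) hsT hb hbκ hh hh1 hq ha1 ha2 le_rfl le_rfl le_rfl hVc hec hAc
    continuousOn_const hV he hA (fun ρ _ => hasDerivAt_const ρ 0) hA0 hB0 hDA0 hBd
    (fun _ _ => by norm_num) hAs h1 h2 (by norm_num) (by simpa using h3)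
  exact ⟨ρ, hρ, c1, c2, c3, c5⟩

end Vale.Agent.P245.H300
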