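import Vale.Agent.P245.H300.GL
import Vale.Agent.P245.H719.Sym
import Vale.Agent.P245.H440.PathW
import Vale.Agent.P245.H468.ChB

set_option linter.unusedSectionVars false

open MeasureTheory Real Set Filter Topology
open scoped ENNReal ContDiff

/-! # The good level (output of the dynamic part) -/

namespace Vale.Agent.P245.H300

open LS LS.Down E1

variable {n : ℕ}

/-- **GOOD LEVEL**: all the static part of the proof needs to know about the law `N p_r` and the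
field `f` (`h` small, `dl = κ / C0`). -/
structure GoodLevel (μ : Measure (Fin n → ℝ)) (κ dl r : ℝ) (N : (Fin n → ℝ) → ℝ)
    (f : Fin n → (Fin n → ℝ) → ℝ) (h Ka Mch : ℝ) : Prop where
  r_lo : 9 / 4 * dl ≤ r
  r_hi : r ≤ 5 / 2 * dl
  pos : Pos N
  one : EY μ r N = 1
  sb : ∀ i, SB (f i)
  fi : 0 < LS.FI μ r N
  he : LS.HE μ r N ≤ κ * LS.FI μ r N
  slack : κ * LS.FI μ r N - LS.HE μ r N ≤ Ka * LS.FI μ r N
  ga : 2 * κ * LS.GA μ r N ≤ (1 + h) * LS.FI μ r N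
  e_lo : (1 - h) * LS.FI μ r N ≤ 2 * κ * E1.DE μ r N f
  e_hi : 2 * κ * E1.DE μ r N f ≤ (1 + h) * LS.FI μ r N
  v_lo : (1 - h) * LS.FI μ r N ≤ E1.IP μ r N f f
  v_hi : E1.IP μ r N f f ≤ (1 + h) * LS.FI μ r N
  /-- T-bound -/
  tb : 2 * κ * H991.D2 μ r N f ≤ (1 + h) * E1.DE μ r N f
  /-- flats -/
  fl : r * H991.BS μ r N f ≤ h * E1.DE μ r N f
  /-- antisymmetric part -/
  asy : H719.AA μ r N f ≤ h * E1.DE μ r N f
  dasy : 2 * κ * H719.DA μ r N f ≤ h * E1.DE μ r N f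
  /-- hiddenness, every output space -/
  co : ∀ (W : Type) [MeasurableSpace W] (γ : Measure W) [IsProbabilityMeasure γ] (g : W → ℝ),
    H468.Out γ g → ∀ l, H468.Ch γ g l →
      H468.Inf γ μ r N l ≤ Mch * κ * LS.FI μ r N → H468.Co γ μ r N f l ≤ h * LS.FI μ r N

theorem BS_nonneg {ρ0 : (Fin n → ℝ) → ℝ} {R : ℝ} (hρ : LCd ρ0) [IsProbabilityMeasure (mu ρ0)]
    (hμ : CSupp (mu ρ0) R) {r : ℝ} (hr : 0 < r) {N : (Fin n → ℝ) → ℝ} (hN : Pos N)
    (f : Fin n → (Fin n → ℝ) → ℝ) : 0 ≤ H991.BS (mu ρ0) r N f := by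
  unfold H991.BS
  refine EY_nonneg _ _ fun y => mul_nonneg (hN.pos y).le (Finset.sum_nonneg fun i _ => ?_)
  have h1 := Pq_nonneg hρ hμ hr y (fun j => pd (f i) j y)
  unfold Pq at h1
  refine h1.trans (le_of_eq ?_)
  apply Finset.sum_congr rfl; intro j _
  apply Finset.sum_congr rfl; intro k _
  rw [PV_eq' hμ hr]

theorem D2_nonneg {μ : Measure (Fin n → ℝ)} {r : ℝ} {N : (Fin n → ℝ) → ℝ} (hN : Pos N)
    (f : Fin n → (Fin n → ℝ) → ℝ) : 0 ≤ H991.D2 μ r N f :=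
  EY_nonneg _ _ fun y => mul_nonneg (hN.pos y).le (Finset.sum_nonneg fun _ _ =>
    Finset.sum_nonneg fun _ _ => Finset.sum_nonneg fun _ _ => sq_nonneg _)

/-- the good level on a path, before the choice of constants -/
theorem level_of_path {ρ0 : (Fin n → ℝ) → ℝ} {R κ δ τ M C s T h m : ℝ} {N : (Fin n → ℝ) → ℝ}
    (hρ : LCd ρ0) [hprob : IsProbabilityMeasure (mu ρ0)] (hcs : CSupp (mu ρ0) R)
    (P : H440.PathOut (mu ρ0) κ δ τ M C s T N) (hδ : 0 < δ) (hδκ : 2 * δ ≤ κ)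
    (hτ : 0 < τ) (hτ1 : τ ≤ 1 / 8) (hh : 0 < h) (hh1 : h ≤ 1) (hC : 0 < C) (hm : 0 < m)
    (hq : 64 * (τ * κ) ≤ h ^ 2 * (2 * δ)) (hCκ : 4 * C ≤ κ)
    (h3 : 64 * (2 * C / κ + m * (C + C / κ * (τ * κ))) < h * τ) :
    ∃ ρ ∈ Ioo s T,
      2 * κ * (H991.D2 (mu ρ0) ρ (PH (T - ρ) N) (H440.mf (mu ρ0) s T N ρ)
        + 2 * H991.BS (mu ρ0) ρ (PH (T - ρ) N) (H440.mf (mu ρ0) s T N ρ))
        ≤ (1 + h) * E1.DE (mu ρ0) ρ (PH (T - ρ) N) (H440.mf (mu ρ0) s T N ρ) ∧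
      2 * κ * H719.DA (mu ρ0) ρ (PH (T - ρ) N) (H440.mf (mu ρ0) s T N ρ)
        ≤ h * E1.DE (mu ρ0) ρ (PH (T - ρ) N) (H440.mf (mu ρ0) s T N ρ) ∧
      H719.AA (mu ρ0) ρ (PH (T - ρ) N) (H440.mf (mu ρ0) s T N ρ)
        ≤ h * E1.DE (mu ρ0) ρ (PH (T - ρ) N) (H440.mf (mu ρ0) s T N ρ) ∧
      m * (2 * κ * LS.GA (mu ρ0) ρ (PH (T - ρ) N) - LS.FI (mu ρ0) ρ (PH (T - ρ) N))
        ≤ 4 * E1.DE (mu ρ0) ρ (PH (T - ρ) N) (H440.mf (mu ρ0) s T N ρ) ∧
      (1 - 2 * τ) * LS.FI (mu ρ0) T N - C * LS.FI (mu ρ0) T N / κ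
        ≤ 2 * κ * E1.DE (mu ρ0) ρ (PH (T - ρ) N) (H440.mf (mu ρ0) s T N ρ) ∧
      2 * κ * E1.DE (mu ρ0) ρ (PH (T - ρ) N) (H440.mf (mu ρ0) s T N ρ)
        ≤ LS.FI (mu ρ0) s (PH (T - s) N) + C * LS.FI (mu ρ0) T N / κ := by
  have hκ0 : 0 < κ := by linarith
  have hs0 : 0 < s := lt_of_lt_of_le (by linarith) P.s_ge
  have hsT : s < T := by
    have h1 := P.s_mem.2
    have h2 : 0 < τ * κ / 2 := by positivity
    linarith
  have hTs : T - s ≤ τ * κ := by have := P.s_mem.1; linarith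
  have hTs2 : τ * κ / 2 ≤ T - s := by have := P.s_mem.2; linarith
  have hsI : s ∈ Icc s T := ⟨le_rfl, hsT.le⟩
  have hTI : T ∈ Icc s T := ⟨hsT.le, le_rfl⟩
  obtain ⟨F, hF⟩ : ∃ F : ℝ, F = LS.FI (mu ρ0) T N := ⟨_, rfl⟩
  have hF0 : 0 < F := by rw [hF]; exact P.fi
  have hφ : ∀ i, SB (sN (PH (T - s) N) i) := fun i =>
    (P.posρ s hsI).div ((P.posρ s hsI).sb.pd i)
  obtain ⟨tb0c, tb0d⟩ := H991.tb0 hcs P.pos (T := T) hs0 hφ
  obtain ⟨tb1c, tb1d⟩ := H991.tb1 hcs P.pos (T := T) hs0 hφ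
  obtain ⟨syc, sy0, syd0, sybot, sy⟩ := H719.sym hρ hcs P.pos (b := 2 * δ) (s := s) (T := T)
    (by linarith) P.s_ge hφ
  obtain ⟨dc1, dc2, dd1, dd2, -⟩ := thDn' n (mu ρ0) R hcs N s T P.pos hs0 hsT.le
  have hAs := sybot (H719.sN_symm (P.posρ s hsI))
  -- bottom and top
  have hco := (thCo n (mu ρ0) s (PH (T - s) N) (P.posρ s hsI)).1
  have hmf : H440.mf (mu ρ0) s T N s = sN (PH (T - s) N) := funext P.mf_bot
  have es : E1.DE (mu ρ0) s (PH (T - s) N) (H440.mf (mu ρ0) s T N s)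
      = LS.GA (mu ρ0) s (PH (T - s) N) := by rw [hmf, hco.2]
  have vs : E1.IP (mu ρ0) s (PH (T - s) N) (H440.mf (mu ρ0) s T N s)
      (H440.mf (mu ρ0) s T N s) = LS.FI (mu ρ0) s (PH (T - s) N) := by rw [hmf, hco.1]
  have hbot := P.bot
  have hnT := P.mf_near T hTI
  have hvT := P.mf_ge T hTI
  rw [← hF] at hbot hnT hvT
  have hCF : 0 ≤ C * F / κ := by positivity
  have hCF4 : C * F / κ ≤ F / 4 := by
    rw [div_le_div_iff₀ hκ0 (by norm_num)]; nlinarith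
  -- lower bound of the energy at the top
  have heT : F / (4 * κ) ≤ E1.DE (mu ρ0) T (PH (T - T) N) (H440.mf (mu ρ0) s T N T) := by
    rw [div_le_iff₀ (by positivity)]
    have : τ * F ≤ 1 / 8 * F := mul_le_mul_of_nonneg_right hτ1 hF0.le
    nlinarith
  obtain ⟨ρ, hρI, c1, c2, c3, c4, c5, c6, -⟩ := good_level_y (s := s) (T := T) (κ := κ)
    (b := 2 * δ) (h := h) (a1 := C * F / κ) (a2 := C * F / κ) (a3 := C * F / κ / 2)
    (a4 := C * F) (m := m)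
    (Vf := fun ρ => H991.IPi (mu ρ0) ρ (PH (T - ρ) N)
      (fun i => UL (mu ρ0) s ρ (sN (PH (T - s) N) i))
      (fun i => UL (mu ρ0) s ρ (sN (PH (T - s) N) i)))
    (e := fun ρ => H991.DEi (mu ρ0) ρ (PH (T - ρ) N)
      (fun i => UL (mu ρ0) s ρ (sN (PH (T - s) N) i)))
    (AA := fun ρ => H719.AA (mu ρ0) ρ (PH (T - ρ) N)
      (fun i => UL (mu ρ0) s ρ (sN (PH (T - s) N) i)))
    (d := fun ρ => H991.D2 (mu ρ0) ρ (PH (T - ρ) N)
      (fun i => UL (mu ρ0) s ρ (sN (PH (T - s) N) i))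
      + 2 * H991.BS (mu ρ0) ρ (PH (T - ρ) N)
      (fun i => UL (mu ρ0) s ρ (sN (PH (T - s) N) i)))
    (B := fun ρ => H991.BS (mu ρ0) ρ (PH (T - ρ) N)
      (fun i => UL (mu ρ0) s ρ (sN (PH (T - s) N) i)))
    (DA := fun ρ => H719.DA (mu ρ0) ρ (PH (T - ρ) N)
      (fun i => UL (mu ρ0) s ρ (sN (PH (T - s) N) i)))
    (y := fun ρ => κ * LS.FI (mu ρ0) ρ (PH (T - ρ) N) - LS.HE (mu ρ0) ρ (PH (T - ρ) N))
    (g := fun ρ => κ * LS.GA (mu ρ0) ρ (PH (T - ρ) N)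
      - 1 / 2 * LS.FI (mu ρ0) ρ (PH (T - ρ) N))
    hsT (by linarith) hδκ hh hh1 (by linarith [mul_le_mul_of_nonneg_left hTs (by norm_num : (0:ℝ) ≤ 64)])
    hCF hCF hm.le (by positivity) (by positivity) tb0c tb1c syc
    ((continuousOn_const.mul dc2).sub dc1) tb0d tb1d sy
    (fun ρ hρ => ((dd2 ρ hρ).const_mul κ).sub (dd1 ρ hρ))
    (fun ρ _ => sy0 ρ)
    (fun ρ hρ' => BS_nonneg hρ hcs (hs0.trans hρ'.1) (P.posρ ρ (Ioo_subset_Icc_self hρ')) _)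
    (fun ρ _ => syd0 ρ)
    (fun ρ hρ' => by
      have := D2_nonneg (μ := mu ρ0) (r := ρ) (P.posρ ρ (Ioo_subset_Icc_self hρ'))
        (fun i => UL (mu ρ0) s ρ (sN (PH (T - s) N) i))
      linarith)
    (fun ρ hρ' => by
      have := P.ga_ge ρ (Ioo_subset_Icc_self hρ')
      rw [← hF] at this
      linarith)
    hAs
    (by
      change 2 * κ * E1.DE (mu ρ0) s (PH (T - s) N) (H440.mf (mu ρ0) s T N s)
        ≤ E1.IP (mu ρ0) s (PH (T - s) N) (H440.mf (mu ρ0) s T N s) (H440.mf (mu ρ0) s T N s)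
          + C * F / κ
      rw [es, vs]
      exact hbot)
    (by exact hnT)
    (by
      have h1 := P.slack T hTI
      have h2 := P.he_le s hsI
      rw [← hF] at h1
      linarith)
    (by
      refine lt_of_lt_of_le (b := h * τ * F / 16 * 2) ?_ ?_
      · have t1 : m * (C * F + C * F / κ / 2 * (T - s)) ≤ m * (C + C / κ * (τ * κ)) * F := by
          have : C * F / κ / 2 * (T - s) ≤ C / κ * (τ * κ) * F := by
            have e1 : C * F / κ / 2 * (T - s) ≤ C * F / κ / 2 * (τ * κ) :=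
              mul_le_mul_of_nonneg_left hTs (by positivity)
            have e2 : C / κ * (τ * κ) * F = 2 * (C * F / κ / 2 * (τ * κ)) := by ring
            have e3 : 0 ≤ C * F / κ / 2 * (τ * κ) := by positivity
            linarith
          have e4 : m * (C + C / κ * (τ * κ)) * F = m * (C * F + C / κ * (τ * κ) * F) := by ring
          rw [e4]
          exact mul_le_mul_of_nonneg_left (by linarith) hm.le
        have t2 : C * F / κ + C * F / κ = 2 * C / κ * F := by ring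
        have t3 := mul_lt_mul_of_pos_right h3 hF0
        have t4 : 0 < h * τ * F := by positivity
        have t5 : 64 * (2 * C / κ + m * (C + C / κ * (τ * κ))) * F
            = 64 * (2 * C / κ * F) + 64 * (m * (C + C / κ * (τ * κ)) * F) := by ring
        rw [t5] at t3
        rw [t2]
        linarith
      · change h * τ * F / 16 * 2 ≤ h * (T - s)
          * E1.DE (mu ρ0) T (PH (T - T) N) (H440.mf (mu ρ0) s T N T)
        have t1 : h * (τ * κ / 2) * (F / (4 * κ)) ≤ h * (T - s)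
          * E1.DE (mu ρ0) T (PH (T - T) N) (H440.mf (mu ρ0) s T N T) := by
          apply mul_le_mul (mul_le_mul_of_nonneg_left hTs2 hh.le) heT (by positivity)
          have : 0 ≤ T - s := by linarith
          positivity
        have t2 : h * (τ * κ / 2) * (F / (4 * κ)) = h * τ * F / 16 * 2 := by
          field_simp; ring
        linarith)
  refine ⟨ρ, hρI, c1, c2, c3, ?_, ?_, ?_⟩
  · have k1 : 0 ≤ E1.DE (mu ρ0) ρ (PH (T - ρ) N) (H440.mf (mu ρ0) s T N ρ) := by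
      refine le_trans ?_ c5
      exact le_trans (by positivity) heT
    have k2 : h * E1.DE (mu ρ0) ρ (PH (T - ρ) N) (H440.mf (mu ρ0) s T N ρ)
        ≤ 1 * E1.DE (mu ρ0) ρ (PH (T - ρ) N) (H440.mf (mu ρ0) s T N ρ) :=
      mul_le_mul_of_nonneg_right hh1 k1
    have k3 : 0 ≤ m * (C * F / κ / 2) := by positivity
    have k4 : m * (κ * LS.GA (mu ρ0) ρ (PH (T - ρ) N)
        - 1 / 2 * LS.FI (mu ρ0) ρ (PH (T - ρ) N) + C * F / κ / 2)
        ≤ (1 + h) * E1.DE (mu ρ0) ρ (PH (T - ρ) N) (H440.mf (mu ρ0) s T N ρ) := c4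
    linarith
  · rw [← hF]
    have k1 : 2 * κ * E1.DE (mu ρ0) T (PH (T - T) N) (H440.mf (mu ρ0) s T N T)
        ≤ 2 * κ * E1.DE (mu ρ0) ρ (PH (T - ρ) N) (H440.mf (mu ρ0) s T N ρ) :=
      mul_le_mul_of_nonneg_left c5 (by positivity)
    linarith
  · rw [← hF]
    have k1 : 2 * κ * E1.DE (mu ρ0) ρ (PH (T - ρ) N) (H440.mf (mu ρ0) s T N ρ)
        ≤ 2 * κ * E1.DE (mu ρ0) s (PH (T - s) N) (H440.mf (mu ρ0) s T N s) :=
      mul_le_mul_of_nonneg_left c6 (by positivity)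
    rw [es] at k1
    linarith

/-- hiddenness of the martingale field, every output space -/
theorem hidden_of_path {ρ0 : (Fin n → ℝ) → ℝ} {R κ δ τ M C s T : ℝ} {N : (Fin n → ℝ) → ℝ}
    (hρ : LCd ρ0) [hprob : IsProbabilityMeasure (mu ρ0)] (hcs : CSupp (mu ρ0) R)
    (hexp : ExpM (mu ρ0) 1) (hDBS : DBS (mu ρ0) (2 * δ) δ κ 0)
    (P : H440.PathOut (mu ρ0) κ δ τ M C s T N) (hδ : 0 < δ) (hδκ : 2000 * δ ≤ κ)
    (hτ1 : τ ≤ 1 / 8) (hM : 1 ≤ M) (hC : 0 < C) (hCκ : 20000 * C ≤ κ)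
    {W : Type} [MeasurableSpace W] {γ : Measure W} [IsProbabilityMeasure γ] {g : W → ℝ}
    (hg : H468.Out γ g) {ρ : ℝ} (hρI : ρ ∈ Icc s T) :
    H468.Pred γ g (mu ρ0) ρ (PH (T - ρ) N) (H440.mf (mu ρ0) s T N ρ)
      (M * κ * LS.FI (mu ρ0) T N)
      ((800 / δ ^ 2 * (κ + M * κ) + 4000 * C / κ) * LS.FI (mu ρ0) T N) := by
  have hκ0 : 0 < κ := by linarith
  have hs0 : 0 < s := lt_of_lt_of_le (by linarith) P.s_ge
  have hsT : s ≤ T := hρI.1.trans hρI.2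
  have hsI : s ∈ Icc s T := ⟨le_rfl, hsT⟩
  obtain ⟨F, hF⟩ : ∃ F : ℝ, F = LS.FI (mu ρ0) T N := ⟨_, rfl⟩
  have hF0 : 0 < F := by rw [hF]; exact P.fi
  have hFs := P.fi_le s hsI
  have hFg := P.fi_ge s hsI
  have hsl := P.slack s hsI
  have hhe := P.he_le s hsI
  rw [← hF] at hFs hFg hsl ⊢
  have hφ : ∀ i, SB (sN (PH (T - s) N) i) := fun i =>
    (P.posρ s hsI).div ((P.posρ s hsI).sb.pd i)
  have h1 := H468.predG hg hρ hprob hcs le_rfl hexp (N := PH (T - s) N) (δ := δ) (κ := κ)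
    (σ := s) (α := C * F) (x := M * κ * F) (D := 0) hδ hδκ hDBS
    ⟨P.s_ge, by have := P.T_eq; linarith⟩ (P.posρ s hsI) (P.oneρ s hsI) (by positivity)
    (by
      have t1 : 7 / 8 * F ≤ LS.FI (mu ρ0) s (PH (T - s) N) := by
        have : τ * F ≤ 1 / 8 * F := mul_le_mul_of_nonneg_right hτ1 hF0.le
        linarith
      have t2 : κ * (7 / 8 * F) ≤ κ * LS.FI (mu ρ0) s (PH (T - s) N) :=
        mul_le_mul_of_nonneg_left t1 hκ0.le
      have t3 : 20000 * C * F ≤ κ * F := mul_le_mul_of_nonneg_right hCκ hF0.le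
      have t4 : 0 < κ * F := by positivity
      linarith)
    (by linarith)
    (by
      have t1 : 2 * δ * LS.FI (mu ρ0) s (PH (T - s) N) ≤ 2 * δ * F :=
        mul_le_mul_of_nonneg_left hFs (by linarith)
      have t2 : 2 * δ * F ≤ κ * F := mul_le_mul_of_nonneg_right (by linarith) hF0.le
      have t3 : 1 * (κ * F) ≤ M * (κ * F) := mul_le_mul_of_nonneg_right hM (by positivity)
      linarith)
  have eP : PH (ρ - s) (PH (T - ρ) N) = PH (T - s) N := by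
    rw [PH_PH P.pos.sb (by linarith [hρI.1]) (by linarith [hρI.2])]
    congr 1
    ring
  have h2 := (H468.thT hg hcs (N := PH (T - ρ) N) (s := s) (r := ρ) (x := M * κ * F)
    (X := 800 / δ ^ 2 * (LS.HE (mu ρ0) s (PH (T - s) N) + M * κ * F + log 1)
      + 4000 * (C * F) / κ) (P.posρ ρ hρI) hs0 hρI.1).2.2.2 (sN (PH (T - s) N)) hφ
  rw [eP] at h2
  have h3 := h2 h1
  intro l hl hI
  refine (h3 l hl hI).trans ?_
  rw [log_one, add_zero]
  have t1 : LS.HE (mu ρ0) s (PH (T - s) N) ≤ κ * F :=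
    hhe.trans (mul_le_mul_of_nonneg_left hFs hκ0.le)
  have t2 : 800 / δ ^ 2 * (LS.HE (mu ρ0) s (PH (T - s) N) + M * κ * F)
      ≤ 800 / δ ^ 2 * (κ * F + M * κ * F) :=
    mul_le_mul_of_nonneg_left (by linarith) (by positivity)
  have t3 : (800 / δ ^ 2 * (κ + M * κ) + 4000 * C / κ) * F
      = 800 / δ ^ 2 * (κ * F + M * κ * F) + 4000 * (C * F) / κ := by ring
  rw [t3]
  linarith

/-- **dynamic theorem**: a good level for every near-maximiser -/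
theorem gl_of_near (C0 M h : ℝ) (hC0 : 2000 ≤ C0) (hM : 1 ≤ M) (hh : 0 < h) (hh1 : h ≤ 1)
    (hC0h : 2 ≤ C0 * h) :
    ∃ Ka K : ℝ, 0 < Ka ∧ 0 < K ∧ ∀ (n : ℕ) (ρ0 : (Fin n → ℝ) → ℝ) (R κ : ℝ), LCd ρ0 →
      IsProbabilityMeasure (mu ρ0) → CSupp (mu ρ0) R → ExpM (mu ρ0) 1 → K ≤ κ →
      DBS (mu ρ0) (2 * (κ / C0)) (κ / C0) κ 0 →
      ∀ (σ : ℝ) (N0 : (Fin n → ℝ) → ℝ), σ ∈ Icc (2 * (κ / C0)) (3 * (κ / C0)) → Pos N0 →
        EY (mu ρ0) σ N0 = 1 → 0 < LS.FI (mu ρ0) σ N0 →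
        (κ - 1) * LS.FI (mu ρ0) σ N0 ≤ LS.HE (mu ρ0) σ N0 →
        ∃ (r : ℝ) (N : (Fin n → ℝ) → ℝ) (f : Fin n → (Fin n → ℝ) → ℝ),
          GoodLevel (mu ρ0) κ (κ / C0) r N f h Ka M := by
  have hC00 : 0 < C0 := by linarith
  obtain ⟨τ, hτd⟩ : ∃ τ : ℝ, τ = h ^ 2 / (64 * C0) := ⟨_, rfl⟩
  have hτ : 0 < τ := by rw [hτd]; positivity
  have hτC : τ * C0 = h ^ 2 / 64 := by rw [hτd]; field_simp
  have hh2 : h ^ 2 ≤ h := by nlinarith
  have hτC2 : τ * C0 ≤ 1 / 2 := by rw [hτC]; linarith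
  have hτh : τ ≤ h / 100 := by
    have : τ * 2000 ≤ τ * C0 := mul_le_mul_of_nonneg_left hC0 hτ.le
    linarith
  obtain ⟨C, K, hC, hK, H⟩ := H440.pathW C0 M τ hC0 hM hτ hτC2
  obtain ⟨m, hmd⟩ : ∃ m : ℝ, m = h * τ / (256 * C) := ⟨_, rfl⟩
  have hm : 0 < m := by rw [hmd]; positivity
  have hmC : m * C = h * τ / 256 := by rw [hmd]; field_simp
  refine ⟨2 * C, K + 20000 * C + 256 * C / (h * τ) + 16 / (m * h)
    + (1600 * C0 ^ 2 * (1 + M) + 8000 * C) / h + 100 * C / h, by positivity, by positivity, ?_⟩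
  intro n ρ0 R κ hρ hprob hcs hexp hκ hDBS σ N0 hσ hN0 hN01 hF00 hnear
  have := hprob
  -- consequences of `K ≤ κ`
  have p1 : 0 < 256 * C / (h * τ) := by positivity
  have p2 : 0 < 16 / (m * h) := by positivity
  have p3 : 0 < (1600 * C0 ^ 2 * (1 + M) + 8000 * C) / h := by positivity
  have p4 : 0 < 100 * C / h := by positivity
  have hκ0 : 0 < κ := by linarith
  have kK : K ≤ κ := by linarith
  have k1 : 256 * C / (h * τ) ≤ κ := by linarith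
  have k2 : 16 / (m * h) ≤ κ := by linarith
  have k3 : (1600 * C0 ^ 2 * (1 + M) + 8000 * C) / h ≤ κ := by linarith
  have k4 : 100 * C / h ≤ κ := by linarith
  have k5 : 20000 * C ≤ κ := by linarith
  rw [div_le_iff₀ (by positivity)] at k1 k2 k3 k4
  obtain ⟨s, T, N, P⟩ := H n ρ0 R κ hρ hprob hcs hexp kK hDBS σ N0 hσ hN0 hN01 hF00 hnear
  have hδ : 0 < κ / C0 := by positivity
  have hδC : κ / C0 * C0 = κ := by field_simp
  have hδκ : 2000 * (κ / C0) ≤ κ := by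
    calc 2000 * (κ / C0) ≤ C0 * (κ / C0) := mul_le_mul_of_nonneg_right hC0 hδ.le
      _ = κ := by field_simp
  have hτκ : τ * κ = h ^ 2 / 64 * (κ / C0) := by rw [← hτC]; field_simp
  obtain ⟨ρ, hρI, c1, c2, c3, c4, c5, c6⟩ := level_of_path (m := m) (h := h) hρ hcs P hδ
    (by linarith) hτ (by linarith) hh hh1 hC hm
    (by
      rw [hτκ]
      have : 0 ≤ h ^ 2 * (κ / C0) := by positivity
      linarith)
    (by linarith)
    (by
      have e1 : C / κ * (τ * κ) = C * τ := by field_simp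
      have e2 : 2 * C / κ ≤ h * τ / 128 := by
        rw [div_le_iff₀ hκ0]; linarith
      have e3 : m * (C + C * τ) = h * τ / 256 + h * τ / 256 * τ := by rw [← hmC]; ring
      rw [e1, e3]
      have e4 : h * τ / 256 * τ ≤ h * τ / 256 * (1 / 8) :=
        mul_le_mul_of_nonneg_left (by linarith) (by positivity)
      have e5 : 0 < h * τ := by positivity
      linarith)
  have hρI' := Ioo_subset_Icc_self hρI
  have hsI : s ∈ Icc s T := ⟨le_rfl, (hρI.1.trans hρI.2).le⟩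
  obtain ⟨F, hF⟩ : ∃ F : ℝ, F = LS.FI (mu ρ0) T N := ⟨_, rfl⟩
  have hF0 : 0 < F := by rw [hF]; exact P.fi
  obtain ⟨G, hG⟩ : ∃ G : ℝ, G = LS.FI (mu ρ0) ρ (PH (T - ρ) N) := ⟨_, rfl⟩
  have hGF := P.fi_le ρ hρI'
  have hGF2 := P.fi_ge ρ hρI'
  have hsF := P.fi_le s hsI
  have hslack := P.slack ρ hρI'
  have hvle := P.mf_le ρ hρI'
  have hvge := P.mf_ge ρ hρI'
  rw [← hF, ← hG] at hGF hGF2 hslack
  rw [← hF] at hsF hvge c5 c6
  rw [← hG] at c4
  have hκC : C * F / κ ≤ h / 100 * F := by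
    rw [div_le_iff₀ hκ0]
    have := mul_le_mul_of_nonneg_right k4 hF0.le
    linarith
  have hτF : τ * F ≤ h / 100 * F := mul_le_mul_of_nonneg_right hτh hF0.le
  have hhF : h * F ≤ 1 * F := mul_le_mul_of_nonneg_right hh1 hF0.le
  have hGhalf : F / 2 ≤ G := by linarith
  have hG0 : 0 < G := by linarith
  have hhG : h * G ≤ h * F := mul_le_mul_of_nonneg_left hGF hh.le
  have hhG2 : h * (F / 2) ≤ h * G := mul_le_mul_of_nonneg_left hGhalf hh.le
  -- `F ≤ (1 + h) G`, with room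
  have hFG : F + h / 100 * F ≤ (1 + h) * G := by linarith
  obtain ⟨E, hE⟩ : ∃ E : ℝ, E = E1.DE (mu ρ0) ρ (PH (T - ρ) N) (H440.mf (mu ρ0) s T N ρ) :=
    ⟨_, rfl⟩
  have hρ0 : 0 < ρ := lt_trans (lt_of_lt_of_le (by linarith) P.s_ge) hρI.1
  have hB0 := BS_nonneg hρ hcs hρ0 (P.posρ ρ hρI') (H440.mf (mu ρ0) s T N ρ)
  have hD0 := D2_nonneg (μ := mu ρ0) (r := ρ) (P.posρ ρ hρI') (H440.mf (mu ρ0) s T N ρ)
  rw [← hE] at c1 c2 c3 c4 c5 c6
  have hE0 : 0 < E := by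
    have : 0 < 2 * κ * E := by
      refine lt_of_lt_of_le ?_ c5
      linarith
    exact (mul_pos_iff_of_pos_left (by positivity)).1 this
  have hEu : κ * E ≤ F := by linarith
  refine ⟨ρ, PH (T - ρ) N, H440.mf (mu ρ0) s T N ρ, ?_⟩
  refine
    { r_lo := ?_, r_hi := ?_, pos := P.posρ ρ hρI', one := P.oneρ ρ hρI', sb := P.mf_sb ρ hρI',
      fi := ?_, he := P.he_le ρ hρI', slack := ?_, ga := ?_, e_lo := ?_, e_hi := ?_,
      v_lo := ?_, v_hi := ?_, tb := ?_, fl := ?_, asy := ?_, dasy := ?_, co := ?_ }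
  · have t1 := P.s_mem.1
    rw [P.T_eq] at t1
    have t2 : τ * κ ≤ κ / C0 / 4 := by
      rw [hτκ]
      have : h ^ 2 / 64 * (κ / C0) ≤ 1 / 64 * (κ / C0) :=
        mul_le_mul_of_nonneg_right (by linarith) hδ.le
      linarith
    linarith [hρI.1]
  · have := P.T_eq
    linarith [hρI.2]
  · rw [← hG]; exact hG0
  · rw [← hG]
    have : C * (F / 2) ≤ C * G := mul_le_mul_of_nonneg_left hGhalf hC.le
    linarith
  · rw [← hG]
    -- m (2κ GA - G) ≤ 4 E ≤ 4 F / κ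
    have t1 : m * (2 * κ * LS.GA (mu ρ0) ρ (PH (T - ρ) N) - G) * κ ≤ 4 * F := by
      have := mul_le_mul_of_nonneg_right c4 hκ0.le
      linarith
    have t2 : 4 * F ≤ m * (h * G) * κ := by
      have e1 : 16 * (F / 2) ≤ κ * (m * h) * (F / 2) :=
        mul_le_mul_of_nonneg_right k2 (by positivity)
      have e2 : κ * (m * h) * (F / 2) ≤ κ * (m * h) * G :=
        mul_le_mul_of_nonneg_left hGhalf (by positivity)
      have e3 : κ * (m * h) * G = m * (h * G) * κ := by ring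
      linarith
    have t3 := le_of_mul_le_mul_right (t1.trans t2) hκ0
    have t4 := le_of_mul_le_mul_left t3 hm
    linarith
  · rw [← hG, ← hE]; linarith
  · rw [← hG, ← hE]; linarith
  · rw [← hG]; linarith
  · rw [← hG]; linarith
  · rw [← hE]
    have : 0 ≤ 2 * κ * (2 * H991.BS (mu ρ0) ρ (PH (T - ρ) N) (H440.mf (mu ρ0) s T N ρ)) := by
      positivity
    linarith
  · rw [← hE]
    have t1 : 2 * κ * (2 * H991.BS (mu ρ0) ρ (PH (T - ρ) N) (H440.mf (mu ρ0) s T N ρ))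
        ≤ 2 * E := by
      have e1 : 0 ≤ 2 * κ * H991.D2 (mu ρ0) ρ (PH (T - ρ) N) (H440.mf (mu ρ0) s T N ρ) := by
        positivity
      have e2 : h * E ≤ 1 * E := mul_le_mul_of_nonneg_right hh1 hE0.le
      linarith
    have t2 : ρ ≤ 5 / 2 * (κ / C0) := by have := P.T_eq; linarith [hρI.2]
    have t3 : ρ * H991.BS (mu ρ0) ρ (PH (T - ρ) N) (H440.mf (mu ρ0) s T N ρ)
        ≤ 5 / 2 * (κ / C0) * H991.BS (mu ρ0) ρ (PH (T - ρ) N) (H440.mf (mu ρ0) s T N ρ) :=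
      mul_le_mul_of_nonneg_right t2 hB0
    have t4 : (5 / 2 * (κ / C0) * H991.BS (mu ρ0) ρ (PH (T - ρ) N)
        (H440.mf (mu ρ0) s T N ρ)) * C0 ≤ h * E * C0 := by
      have e1 : (5 / 2 * (κ / C0) * H991.BS (mu ρ0) ρ (PH (T - ρ) N)
        (H440.mf (mu ρ0) s T N ρ)) * C0 = 5 / 2 * (κ * H991.BS (mu ρ0) ρ (PH (T - ρ) N)
        (H440.mf (mu ρ0) s T N ρ)) := by field_simp
      rw [e1]
      have e2 : 2 * E ≤ C0 * h * E := mul_le_mul_of_nonneg_right hC0h hE0.le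
      linarith
    exact t3.trans (le_of_mul_le_mul_right t4 hC00)
  · rw [← hE]; exact c3
  · rw [← hE]; exact c2
  · intro W _ γ _ g hg l hl hI
    have h1 := hidden_of_path hρ hcs hexp hDBS P hδ hδκ (by linarith) hM hC k5 hg hρI' l hl
    rw [← hF] at h1
    rw [← hG] at hI ⊢
    have h2 := h1 (hI.trans (mul_le_mul_of_nonneg_left hGF (by positivity)))
    refine h2.trans ?_
    have e1 : 800 / (κ / C0) ^ 2 * (κ + M * κ) + 4000 * C / κ
        = (800 * C0 ^ 2 * (1 + M) + 4000 * C) / κ := by field_simp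
    rw [e1]
    have e2 : (800 * C0 ^ 2 * (1 + M) + 4000 * C) / κ ≤ h / 2 := by
      rw [div_le_iff₀ hκ0]; linarith
    calc (800 * C0 ^ 2 * (1 + M) + 4000 * C) / κ * F ≤ h / 2 * F :=
          mul_le_mul_of_nonneg_right e2 hF0.le
      _ ≤ h * G := by linarith

end Vale.Agent.P245.H300
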