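import Vale.Agent.P245.H485.StaticOf
import Vale.Agent.P245.H154.Cracks3
import Vale.Agent.P245.H792.MCd
import Vale.Agent.P245.H300.DynA

/-! # P245: the static half and the core (assembly) -/

open MeasureTheory Real Set Filter Topology

namespace Vale.Agent.P245.H300

open LS E1

theorem crt : H485.CRT (2 * 10 ^ 6) (1 / 20000) (1 / 10 ^ 8) (10 ^ 23) := by
  intro Ka
  refine ⟨max 1 (Ka * 6000), ?_⟩
  intro n ρ0 R κ r N f g0 _ hLC hp hcs _ hκ G _ hg2 hU
  have := hp
  have hκ1 : 1 ≤ κ := (le_max_left _ _).trans hκ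
  have hκ2 : Ka * 6000 ≤ κ := (le_max_right _ _).trans hκ
  have h1 := H154.crack_lev (θ := 1 / 300) hLC hcs (by linarith) (by norm_num) G hg2 hU
    (by norm_num) (by norm_num) (by norm_num) (by norm_num) (by norm_num) (by norm_num)
    (by norm_num) (by
      have h0 : κ ≤ 10 ^ 23 * κ := by nlinarith
      linarith)
  have e : (1 - 3 * (1 / 300) : ℝ) = 99 / 100 := by norm_num
  rw [e] at h1
  exact h1

theorem mct : H485.MCT := by
  intro n ρ0 R b N S hρ hp hcs hb hN hsym hSB
  have := hp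
  exact H792.mcout hρ hcs hb hN hsym hSB

theorem staticT : H991.StaticT :=
  H485.static_of (C0 := 2 * 10 ^ 6) (h := 1 / 20000) (ep := 1 / 10 ^ 8) (M := 10 ^ 23)
    (by norm_num) (by norm_num) (by norm_num) (by norm_num) (by norm_num) (by norm_num)
    (by norm_num) mct crt

theorem core : ∃ C0 K1 : ℝ, 4 ≤ C0 ∧ H652.Core C0 K1 := H991.core_of staticT dynT

end Vale.Agent.P245.H300
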